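import Vale.Agent.P230.Lower
import Vale.Agent.P230.TleL
import Vale.Agent.P230.IsoPos
import Vale.Agent.P230.IsoBounds
import Vale.Agent.P230.SM
import Vale.Agent.P230.Thin
import Vale.Agent.P230.Marg
import Vale.Agent.P230.CellGood
import Vale.Agent.P230.Assemble
import Vale.Agent.P230.RK
import Vale.Agent.P230.BT
import Vale.Agent.P230.Group
import Vale.Agent.P230.Ext
import Vale.Agent.P230.Hor
import Vale.Agent.P230.Stage
import Vale.Agent.P230.Vert
import Vale.Agent.P230.Final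

open Filter Vale.Agent.P230

namespace Vale.Agent.Results.P230.Full

/-- `Θ_T(n)` and `Θ_L(n)` both have order exactly `n log n`, and no bound `θ_T(K) ≤ C n`
holds for all convex bodies. -/
theorem result :
    (∃ c C : ℝ, 0 < c ∧ 0 < C ∧ ∃ n0 : ℕ, ∀ n : ℕ, n0 ≤ n →
      ENNReal.ofReal (c * n * Real.log n) ≤ ThetaT n ∧
      ThetaT n ≤ ENNReal.ofReal (C * n * Real.log n) ∧
      ENNReal.ofReal (c * n * Real.log n) ≤ ThetaL n ∧
      ThetaL n ≤ ENNReal.ofReal (C * n * Real.log n)) ∧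
    ¬ ∃ C : ℝ, ∀ n : ℕ, 1 ≤ n → ∀ K : Set (E n), IsConvexBody K →
      thetaT K ≤ ENNReal.ofReal (C * n) := by
  obtain ⟨c, hc, n1, h1⟩ := ThetaT_lower
  obtain ⟨C, hC, n2, h2⟩ := upper_of isoPos
    (cellGood (marg isoBounds (sm isoBounds) (thin isoBounds (sm isoBounds) smUp)))
    (dfp rk (vert (stage rk (group rk) extP) (bt rk)) (hor extP (baseP rk)))
  refine ⟨⟨c, C, hc, hC, max n1 n2, fun n hn => ⟨h1 n (le_of_max_le_left hn),
    (ThetaT_le_ThetaL n).trans (h2 n (le_of_max_le_right hn)),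
    (h1 n (le_of_max_le_left hn)).trans (ThetaT_le_ThetaL n), h2 n (le_of_max_le_right hn)⟩⟩, ?_⟩
  rintro ⟨B, hB⟩
  have ht : Tendsto (fun n : ℕ => c * Real.log n) atTop atTop :=
    (Real.tendsto_log_atTop.comp tendsto_natCast_atTop_atTop).const_mul_atTop hc
  obtain ⟨n, hn1, hn2, hn3, hn4⟩ := ((ht.eventually (eventually_gt_atTop B)).and
    ((ht.eventually (eventually_gt_atTop 0)).and
      ((eventually_ge_atTop n1).and (eventually_ge_atTop 1)))).exists
  have hn0 : (0 : ℝ) < n := by exact_mod_cast hn4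
  have h3 : ThetaT n ≤ ENNReal.ofReal (B * n) := iSup₂_le fun K hK => hB n hn4 K hK
  have h4 := (h1 n hn3).trans h3
  have h5 : B * n < c * n * Real.log n := by nlinarith
  have h6 : 0 < c * n * Real.log n := by nlinarith
  exact absurd h4 (not_le.2 ((ENNReal.ofReal_lt_ofReal_iff h6).2 h5))

end Vale.Agent.Results.P230.Full
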