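import Vale.Agent.P230.Lower
import Vale.Agent.P230.Rogers
import Vale.Agent.P230.TleL

open Filter Vale.Agent.P230

namespace Vale.Agent.Results.P230.ThetaT

/-- `Θ_T(n)` has order exactly `n log n`, `Θ_L(n) ≥ c n log n`, and no bound `θ_T(K) ≤ C n`
holds for all convex bodies. -/
theorem result :
    (∃ c C : ℝ, 0 < c ∧ 0 < C ∧ ∃ n0 : ℕ, ∀ n : ℕ, n0 ≤ n →
      ENNReal.ofReal (c * n * Real.log n) ≤ ThetaT n ∧
      ThetaT n ≤ ENNReal.ofReal (C * n * Real.log n) ∧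
      ENNReal.ofReal (c * n * Real.log n) ≤ ThetaL n) ∧
    ¬ ∃ C : ℝ, ∀ n : ℕ, 1 ≤ n → ∀ K : Set (E n), IsConvexBody K →
      thetaT K ≤ ENNReal.ofReal (C * n) := by
  obtain ⟨c, hc, n1, h1⟩ := ThetaT_lower
  obtain ⟨C, hC, n2, h2⟩ := rogers
  refine ⟨⟨c, C, hc, hC, max n1 n2, fun n hn => ⟨h1 n (le_of_max_le_left hn),
    h2 n (le_of_max_le_right hn), (h1 n (le_of_max_le_left hn)).trans (ThetaT_le_ThetaL n)⟩⟩, ?_⟩
  rintro ⟨B, hB⟩
  have ht : Tendsto (fun n : ℕ => c * Real.log n) atTop atTop :=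
    (Real.tendsto_log_atTop.comp tendsto_natCast_atTop_atTop).const_mul_atTop hc
  obtain ⟨n, hn1, hn2, hn3, hn4⟩ := ((ht.eventually (eventually_gt_atTop B)).and
    ((ht.eventually (eventually_gt_atTop 0)).and
      ((eventually_ge_atTop n1).and (eventually_ge_atTop 1)))).exists
  have hn0 : (0 : ℝ) < n := by exact_mod_cast hn4
  have h3 : ThetaT n ≤ ENNReal.ofReal (B * n) := iSup₂_le fun K hK => hB n hn4 K hK
  have h4 := (h1 n hn3).trans h3
  have h5 : B * n < c * n * Real.log n := by nlinarith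
  have h6 : 0 < c * n * Real.log n := by nlinarith
  exact absurd h4 (not_le.2 ((ENNReal.ofReal_lt_ofReal_iff h6).2 h5))

end Vale.Agent.Results.P230.ThetaT
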